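import Vale.Agent.P088.R2.H230.Wu
import Vale.Agent.P088.R2.H558.Est

/-!
# P088, row EBD: bounds of the coefficients
-/

open MeasureTheory Set Filter
open scoped ContDiff Matrix Topology

noncomputable section

namespace Vale.Agent.P088.HY

open Vale.Agent.P088.LR

variable {n : ℕ}

namespace EBD

lemma cl_pd {k : ℕ} {δ : ℝ} {f : V n → ℝ} (hf : ContDiff ℝ ∞ f) (h : Cl (k + 1) δ f)
    (i : Fin n) : Cl k δ (pd i f) := by
  intro l hl x
  let L : (V n →L[ℝ] ℝ) →L[ℝ] ℝ := ContinuousLinearMap.apply ℝ ℝ (Pi.single i (1 : ℝ))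
  have hL : ‖L‖ ≤ 1 := by
    refine ContinuousLinearMap.opNorm_le_bound _ zero_le_one fun T => ?_
    have h1 : L T = T (Pi.single i 1) := rfl
    rw [h1, one_mul]
    refine (T.le_opNorm _).trans ?_
    rw [Pi.norm_single, norm_one, mul_one]
  have h2 : pd i f = L ∘ fderiv ℝ f := rfl
  rw [h2]
  have hfd : ContDiff ℝ ∞ (fderiv ℝ f) := hf.fderiv_right (by simp)
  refine (ContinuousLinearMap.norm_iteratedFDeriv_comp_left L hfd.contDiffAt
    (by exact_mod_cast le_top)).trans ?_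
  rw [norm_iteratedFDeriv_fderiv]
  calc ‖L‖ * ‖iteratedFDeriv ℝ (l + 1) f x‖ ≤ 1 * ‖iteratedFDeriv ℝ (l + 1) f x‖ :=
        mul_le_mul_of_nonneg_right hL (norm_nonneg _)
    _ ≤ δ := by rw [one_mul]; exact h (l + 1) (by omega) x

lemma smooth_pd {f : V n → ℝ} (hf : ContDiff ℝ ∞ f) (i : Fin n) : ContDiff ℝ ∞ (pd i f) := by
  have hfd : ContDiff ℝ ∞ (fderiv ℝ f) := hf.fderiv_right (by simp)
  exact hfd.clm_apply contDiff_const

lemma su_fst {g : V n → ℝ} (hg : ContDiff ℝ ∞ g) : SU (fun z : VV n => g z.1) :=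
  (hg.comp contDiff_fst).contDiffOn

lemma su_snd {g : V n → ℝ} (hg : ContDiff ℝ ∞ g) : SU (fun z : VV n => g z.2) :=
  (hg.comp contDiff_snd).contDiffOn

lemma cl_abs {k : ℕ} {δ : ℝ} {f : V n → ℝ} (h : Cl k δ f) (x : V n) : |f x| ≤ δ := by
  have := h 0 (Nat.zero_le _) x
  rwa [norm_iteratedFDeriv_zero] at this

section fam

variable {ι : Type} {w : ι → ℝ}

lemma fb_fst (k : ℕ) (hw : ∀ i, 0 ≤ w i) {g : ι → V n → ℝ} (hg : ∀ i, ContDiff ℝ ∞ (g i))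
    (h : ∀ i, Cl k (w i) (g i)) : FB w1 k w (fun i z => g i z.1) := by
  have h0 : FB w1 0 w (fun i (z : VV n) => g i z.1) :=
    ⟨1, zero_le_one, fun i => ⟨su_fst (hg i), fun z _ => by
      simpa [w1] using cl_abs (h i) z.1⟩⟩
  induction k generalizing g with
  | zero => exact h0
  | succ k ih =>
    refine FB.succ w1_nn hw h0 (fun j => ?_) fun j => ?_
    · have h1 := ih (g := fun i => pd j (g i)) (fun i => smooth_pd (hg i) j)
        (fun i => cl_pd (hg i) (h i) j)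
        ⟨1, zero_le_one, fun i => ⟨su_fst (smooth_pd (hg i) j), fun z _ => by
          simpa [w1] using cl_abs (cl_pd (hg i) (h i) j) z.1⟩⟩
      refine (FB.bm hw w1_nn (fb_r1 k) h1).ofEq fun i z => ?_
      show rr z.1 * dx j (fun z => g i z.1) z = r1 z * pd j (g i) z.1
      rw [dx_comp_fst ((hg i).differentiable (by simp) z.1)]
      rfl
    · refine (FB.zero hw w1_nn).ofEq fun i z => ?_
      show rr z.2 * dy j (fun z => g i z.1) z = 0
      rw [dy_comp_fst, mul_zero]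

lemma fb_snd (k : ℕ) (hw : ∀ i, 0 ≤ w i) {g : ι → V n → ℝ} (hg : ∀ i, ContDiff ℝ ∞ (g i))
    (h : ∀ i, Cl k (w i) (g i)) : FB w1 k w (fun i z => g i z.2) := by
  have h0 : FB w1 0 w (fun i (z : VV n) => g i z.2) :=
    ⟨1, zero_le_one, fun i => ⟨su_snd (hg i), fun z _ => by
      simpa [w1] using cl_abs (h i) z.2⟩⟩
  induction k generalizing g with
  | zero => exact h0
  | succ k ih =>
    refine FB.succ w1_nn hw h0 (fun j => ?_) fun j => ?_
    · refine (FB.zero hw w1_nn).ofEq fun i z => ?_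
      show rr z.1 * dx j (fun z => g i z.2) z = 0
      rw [dx_comp_snd, mul_zero]
    · have h1 := ih (g := fun i => pd j (g i)) (fun i => smooth_pd (hg i) j)
        (fun i => cl_pd (hg i) (h i) j)
        ⟨1, zero_le_one, fun i => ⟨su_snd (smooth_pd (hg i) j), fun z _ => by
          simpa [w1] using cl_abs (cl_pd (hg i) (h i) j) z.2⟩⟩
      refine (FB.bm hw w1_nn (fb_r2 k) h1).ofEq fun i z => ?_
      show rr z.2 * dy j (fun z => g i z.2) z = r2 z * pd j (g i) z.2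
      rw [dy_comp_snd ((hg i).differentiable (by simp) z.2)]
      rfl

end fam

/-- The radius and the two tensors. -/
structure P3 (n : ℕ) where
  /-- The radius. -/
  ε : ℝ
  /-- First tensor. -/
  s₁ : MF n
  /-- Second tensor. -/
  s₂ : MF n
  h0 : 0 ≤ ε
  h1 : ε ≤ 1
  t₁ : TS n 3 ε s₁
  t₂ : TS n 3 ε s₂

lemma wn (p : P3 n) : 0 ≤ p.ε := p.h0

lemma one_eq_kd (i j : Fin n) : (1 : Matrix (Fin n) (Fin n) ℝ) i j = kd i j := by
  rw [Matrix.one_apply]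
  rfl

/-- `s - 1` is small. -/
lemma fb_s {S : P3 n → MF n} (hS : ∀ p, TS n 3 p.ε (S p)) (i j : Fin n) :
    FB w1 3 P3.ε (fun p z => S p z.1 i j - kd i j) := by
  have h := fb_fst 3 (w := P3.ε) wn (g := fun p x => S p x i j - (1 : Matrix (Fin n) (Fin n) ℝ) i j)
    (fun p => ((hS p).sm i j).sub contDiff_const) (fun p => (hS p).cl i j)
  refine h.ofEq fun p z => ?_
  rw [one_eq_kd]

lemma fb_s' {S : P3 n → MF n} (hS : ∀ p, TS n 3 p.ε (S p)) (i j : Fin n) :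
    FB w1 3 P3.ε (fun p z => S p z.2 i j - kd i j) := by
  have h := fb_snd 3 (w := P3.ε) wn (g := fun p x => S p x i j - (1 : Matrix (Fin n) (Fin n) ℝ) i j)
    (fun p => ((hS p).sm i j).sub contDiff_const) (fun p => (hS p).cl i j)
  refine h.ofEq fun p z => ?_
  rw [one_eq_kd]

lemma small_b {φ : VV n → ℝ} {k : ℕ} {f : P3 n → VV n → ℝ} (hφ : ∀ z ∈ Un n, 0 ≤ φ z)
    (h : FB φ k P3.ε f) : FB φ k wo f :=
  h.wle hφ fun p => p.h1

lemma fb_S {S : P3 n → MF n} (hS : ∀ p, TS n 3 p.ε (S p)) (i j : Fin n) :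
    FB w1 3 wo (fun p z => S p z.1 i j) := by
  refine (FB.add wo_nn w1_nn (const_b 3 (kd i j)) (small_b w1_nn (fb_s hS i j))).ofEq
    fun p z => ?_
  ring

lemma fb_S' {S : P3 n → MF n} (hS : ∀ p, TS n 3 p.ε (S p)) (i j : Fin n) :
    FB w1 3 wo (fun p z => S p z.2 i j) := by
  refine (FB.add wo_nn w1_nn (const_b 3 (kd i j)) (small_b w1_nn (fb_s' hS i j))).ofEq
    fun p z => ?_
  ring

/-- `κ_x - n u`. -/
def G1 (s : MF n) (z : VV n) : ℝ := ∑ i, ∑ j, (s z.1 i j - kd i j) *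
  (kd i j * (uu z - xa z) + z.1 j * al i z + (n - 1) * (z.1 i * al j z))

/-- `κ_y - n u`. -/
def G2 (s : MF n) (z : VV n) : ℝ := ∑ i, ∑ j, (s z.2 i j - kd i j) *
  (kd i j * (uu z - yb z) + z.2 j * be i z + (n - 1) * (z.2 i * be j z))

lemma fb_G1 {S : P3 n → MF n} (hS : ∀ p, TS n 3 p.ε (S p)) :
    FB uu 3 P3.ε (fun p => G1 (S p)) := by
  refine FB.sum wn uu_nn fun i => FB.sum wn uu_nn fun j => ?_
  refine FB.sm wn uu_nn (fb_s hS i j) ?_
  exact FB.add wo_nn uu_nn (FB.add wo_nn uu_nn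
    ((FB.sub wo_nn uu_nn (fb_u 3) (fb_xa 3)).cmul (kd i j))
    (FB.bm wo_nn uu_nn (fb_x 3 j) (fb_al 3 i)))
    ((FB.bm wo_nn uu_nn (fb_x 3 i) (fb_al 3 j)).cmul _)

lemma fb_G2 {S : P3 n → MF n} (hS : ∀ p, TS n 3 p.ε (S p)) :
    FB uu 3 P3.ε (fun p => G2 (S p)) := by
  refine FB.sum wn uu_nn fun i => FB.sum wn uu_nn fun j => ?_
  refine FB.sm wn uu_nn (fb_s' hS i j) ?_
  exact FB.add wo_nn uu_nn (FB.add wo_nn uu_nn
    ((FB.sub wo_nn uu_nn (fb_u 3) (fb_yb 3)).cmul (kd i j))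
    (FB.bm wo_nn uu_nn (fb_y 3 j) (fb_be 3 i)))
    ((FB.bm wo_nn uu_nn (fb_y 3 i) (fb_be 3 j)).cmul _)

lemma sum_kd_nn (a : ℝ) : ∑ i : Fin n, ∑ j : Fin n, kd i j * (kd i j * a) = n * a := by
  have : ∀ i : Fin n, ∑ j : Fin n, kd i j * (kd i j * a) = a := by
    intro i
    rw [sum_kd i fun j => kd i j * a, kd_self, one_mul]
  simp [this]

lemma kax_eq (s : MF n) {z : VV n} (hz : z ∈ Un n) : kax s z = n * uu z + G1 s z := by
  have e1 : kax s z = ∑ i, ∑ j, s z.1 i j *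
      (kd i j * (uu z - xa z) + z.1 j * al i z + (n - 1) * (z.1 i * al j z)) := by
    unfold kax Dxs
    rw [add_sub_cancel_right]
    refine Finset.sum_congr rfl fun i _ => Finset.sum_congr rfl fun j _ => ?_
    show s z.1 i j * (Ax i (al j) z + (n - 1) * z.1 i * al j z) = _
    rw [Ax_al hz]
    ring
  have e2 : ∑ i, ∑ j, kd i j *
      (kd i j * (uu z - xa z) + z.1 j * al i z + (n - 1) * (z.1 i * al j z)) = n * uu z := by
    have h1 : ∀ i : Fin n, ∑ j, kd i j *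
        (kd i j * (uu z - xa z) + z.1 j * al i z + (n - 1) * (z.1 i * al j z)) =
        (uu z - xa z) + n * (z.1 i * al i z) := by
      intro i
      rw [sum_kd i fun j => kd i j * (uu z - xa z) + z.1 j * al i z + (n - 1) * (z.1 i * al j z),
        kd_self]
      ring
    simp only [h1, Finset.sum_add_distrib, ← Finset.mul_sum, Finset.sum_const, Finset.card_univ,
      Fintype.card_fin, nsmul_eq_mul]
    unfold xa
    ring
  rw [e1, ← e2]
  unfold G1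
  rw [← Finset.sum_add_distrib]
  refine Finset.sum_congr rfl fun i _ => ?_
  rw [← Finset.sum_add_distrib]
  refine Finset.sum_congr rfl fun j _ => ?_
  ring

lemma kay_eq (s : MF n) {z : VV n} (hz : z ∈ Un n) : kay s z = n * uu z + G2 s z := by
  have e1 : kay s z = ∑ i, ∑ j, s z.2 i j *
      (kd i j * (uu z - yb z) + z.2 j * be i z + (n - 1) * (z.2 i * be j z)) := by
    unfold kay Dys
    rw [add_sub_cancel_right]
    refine Finset.sum_congr rfl fun i _ => Finset.sum_congr rfl fun j _ => ?_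
    show s z.2 i j * (By i (be j) z + (n - 1) * z.2 i * be j z) = _
    rw [By_be hz]
    ring
  have e2 : ∑ i, ∑ j, kd i j *
      (kd i j * (uu z - yb z) + z.2 j * be i z + (n - 1) * (z.2 i * be j z)) = n * uu z := by
    have h1 : ∀ i : Fin n, ∑ j, kd i j *
        (kd i j * (uu z - yb z) + z.2 j * be i z + (n - 1) * (z.2 i * be j z)) =
        (uu z - yb z) + n * (z.2 i * be i z) := by
      intro i
      rw [sum_kd i fun j => kd i j * (uu z - yb z) + z.2 j * be i z + (n - 1) * (z.2 i * be j z),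
        kd_self]
      ring
    simp only [h1, Finset.sum_add_distrib, ← Finset.mul_sum, Finset.sum_const, Finset.card_univ,
      Fintype.card_fin, nsmul_eq_mul]
    unfold yb
    ring
  rw [e1, ← e2]
  unfold G2
  rw [← Finset.sum_add_distrib]
  refine Finset.sum_congr rfl fun i _ => ?_
  rw [← Finset.sum_add_distrib]
  refine Finset.sum_congr rfl fun j _ => ?_
  ring

lemma L0x_uu (s : MF n) {z : VV n} (hz : z ∈ Un n) : L0x s uu z = n * uu z + G1 s z := by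
  rw [← kax_eq s hz]
  unfold kax Dxs
  rw [add_sub_cancel_right]
  rfl

lemma L0y_uu (s : MF n) {z : VV n} (hz : z ∈ Un n) : L0y s uu z = n * uu z + G2 s z := by
  rw [← kay_eq s hz]
  unfold kay Dys
  rw [add_sub_cancel_right]
  rfl

/-- `L0x` on `n u + G`. -/
lemma L0x_nu (s : MF n) {f G : VV n → ℝ} (hG : SU G) (hf : ∀ z ∈ Un n, f z = n * uu z + G z)
    {z : VV n} (hz : z ∈ Un n) : L0x s f z = n * L0x s uu z + L0x s G z := by
  have hA : ∀ j, ∀ z ∈ Un n, Ax j f z = n * Ax j uu z + Ax j G z := by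
    intro j z hz
    rw [Ax_eq, Dr_congr hf hz, Dr_add (contDiffOn_const.mul su_uu) hG hz, Dr_cmul]
  have hAA : ∀ i j, Ax i (Ax j f) z = n * Ax i (Ax j uu) z + Ax i (Ax j G) z := by
    intro i j
    rw [Ax_eq i, Dr_congr (hA j) hz, Dr_add (contDiffOn_const.mul (su_Ax su_uu j)) (su_Ax hG j) hz,
      Dr_cmul]
  unfold L0x
  rw [Finset.mul_sum, ← Finset.sum_add_distrib]
  refine Finset.sum_congr rfl fun i _ => ?_
  rw [Finset.mul_sum, ← Finset.sum_add_distrib]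
  refine Finset.sum_congr rfl fun j _ => ?_
  rw [hAA, hA j z hz]
  ring

lemma L0y_nu (s : MF n) {f G : VV n → ℝ} (hG : SU G) (hf : ∀ z ∈ Un n, f z = n * uu z + G z)
    {z : VV n} (hz : z ∈ Un n) : L0y s f z = n * L0y s uu z + L0y s G z := by
  have hA : ∀ j, ∀ z ∈ Un n, By j f z = n * By j uu z + By j G z := by
    intro j z hz
    rw [By_eq, Dr_congr hf hz, Dr_add (contDiffOn_const.mul su_uu) hG hz, Dr_cmul]
  have hAA : ∀ i j, By i (By j f) z = n * By i (By j uu) z + By i (By j G) z := by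
    intro i j
    rw [By_eq i, Dr_congr (hA j) hz, Dr_add (contDiffOn_const.mul (su_By su_uu j)) (su_By hG j) hz,
      Dr_cmul]
  unfold L0y
  rw [Finset.mul_sum, ← Finset.sum_add_distrib]
  refine Finset.sum_congr rfl fun i _ => ?_
  rw [Finset.mul_sum, ← Finset.sum_add_distrib]
  refine Finset.sum_congr rfl fun j _ => ?_
  rw [hAA, hA j z hz]
  ring

lemma fb_L0x {S : P3 n → MF n} (hS : ∀ p, TS n 3 p.ε (S p)) {G : P3 n → VV n → ℝ}
    (hG : FB uu 3 P3.ε G) : FB uu 1 P3.ε (fun p => L0x (S p) (G p)) := by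
  refine FB.sum wn uu_nn fun i => FB.sum wn uu_nn fun j => ?_
  refine FB.bm wn uu_nn (fb_S hS i j).down.down ?_
  refine FB.add wn uu_nn ((hG.ax j).ax i) ?_
  refine ((FB.bm wn uu_nn (fb_x 1 i) (hG.ax j).down).cmul ((n : ℝ) - 1)).ofEq fun p z => ?_
  ring

lemma fb_L0y {S : P3 n → MF n} (hS : ∀ p, TS n 3 p.ε (S p)) {G : P3 n → VV n → ℝ}
    (hG : FB uu 3 P3.ε G) : FB uu 1 P3.ε (fun p => L0y (S p) (G p)) := by
  refine FB.sum wn uu_nn fun i => FB.sum wn uu_nn fun j => ?_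
  refine FB.bm wn uu_nn (fb_S' hS i j).down.down ?_
  refine FB.add wn uu_nn ((hG.by' j).by' i) ?_
  refine ((FB.bm wn uu_nn (fb_y 1 i) (hG.by' j).down).cmul ((n : ℝ) - 1)).ofEq fun p z => ?_
  ring

/-- `v - γ (γ + 1)`. -/
def W1 (s : MF n) (z : VV n) : ℝ := ga n * (r1 z * ∑ i, (s z.1 i i - kd i i)) +
  ga n * (ga n + 1) * ∑ i, ∑ j, (s z.1 i j - kd i j) * (z.1 i * z.1 j)

/-- `v - γ (γ + 1)`. -/
def W2 (s : MF n) (z : VV n) : ℝ := ga n * (r2 z * ∑ i, (s z.2 i i - kd i i)) +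
  ga n * (ga n + 1) * ∑ i, ∑ j, (s z.2 i j - kd i j) * (z.2 i * z.2 j)

lemma vx_eq (s : MF n) (z : VV n) : vx s z = ga n * (ga n + 1) + W1 s z := by
  have h1 : ∑ i, (s z.1 i i - kd i i) = ∑ i, s z.1 i i - n := by
    simp [kd_self]
  have h2 : ∑ i, ∑ j, (s z.1 i j - kd i j) * (z.1 i * z.1 j) =
      ∑ i, ∑ j, s z.1 i j * z.1 i * z.1 j - (1 - 2 * r1 z) := by
    rw [← sum_xx, ← Finset.sum_sub_distrib]
    refine Finset.sum_congr rfl fun i _ => ?_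
    have h3 : z.1 i * z.1 i = ∑ j, kd i j * (z.1 i * z.1 j) := by
      rw [sum_kd i fun j => z.1 i * z.1 j]
    rw [h3, ← Finset.sum_sub_distrib]
    refine Finset.sum_congr rfl fun j _ => ?_
    ring
  have h4 : (n : ℝ) = 2 * (ga n + 1) := by unfold ga; ring
  unfold vx vp W1
  rw [h1, h2, h4]
  unfold r1
  ring

lemma vy_eq (s : MF n) (z : VV n) : vy s z = ga n * (ga n + 1) + W2 s z := by
  have h1 : ∑ i, (s z.2 i i - kd i i) = ∑ i, s z.2 i i - n := by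
    simp [kd_self]
  have h2 : ∑ i, ∑ j, (s z.2 i j - kd i j) * (z.2 i * z.2 j) =
      ∑ i, ∑ j, s z.2 i j * z.2 i * z.2 j - (1 - 2 * r2 z) := by
    rw [← sum_yy, ← Finset.sum_sub_distrib]
    refine Finset.sum_congr rfl fun i _ => ?_
    have h3 : z.2 i * z.2 i = ∑ j, kd i j * (z.2 i * z.2 j) := by
      rw [sum_kd i fun j => z.2 i * z.2 j]
    rw [h3, ← Finset.sum_sub_distrib]
    refine Finset.sum_congr rfl fun j _ => ?_
    ring
  have h4 : (n : ℝ) = 2 * (ga n + 1) := by unfold ga; ring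
  unfold vy vp W2
  rw [h1, h2, h4]
  unfold r2
  ring

lemma fb_W1 {S : P3 n → MF n} (hS : ∀ p, TS n 3 p.ε (S p)) :
    FB w1 3 P3.ε (fun p => W1 (S p)) := by
  refine FB.add wn w1_nn ?_ ?_
  · exact (FB.bm wn w1_nn (fb_r1 3) (FB.sum wn w1_nn fun i => fb_s hS i i)).cmul _
  · exact (FB.sum wn w1_nn fun i => FB.sum wn w1_nn fun j => FB.sm wn w1_nn (fb_s hS i j)
      (FB.bm wo_nn w1_nn (fb_x 3 i) (fb_x 3 j))).cmul _

lemma fb_W2 {S : P3 n → MF n} (hS : ∀ p, TS n 3 p.ε (S p)) :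
    FB w1 3 P3.ε (fun p => W2 (S p)) := by
  refine FB.add wn w1_nn ?_ ?_
  · exact (FB.bm wn w1_nn (fb_r2 3) (FB.sum wn w1_nn fun i => fb_s' hS i i)).cmul _
  · exact (FB.sum wn w1_nn fun i => FB.sum wn w1_nn fun j => FB.sm wn w1_nn (fb_s' hS i j)
      (FB.bm wo_nn w1_nn (fb_y 3 i) (fb_y 3 j))).cmul _

lemma fb_Gax {S : P3 n → MF n} (hS : ∀ p, TS n 3 p.ε (S p)) :
    FB uu 2 P3.ε (fun p z => ∑ i, ∑ j, S p z.1 i j * (Ax j (W1 (S p)) z * al i z)) :=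
  FB.sum wn uu_nn fun i => FB.sum wn uu_nn fun j => FB.bm wn uu_nn (fb_S hS i j).down
    (FB.sm wn uu_nn ((fb_W1 hS).ax j) (fb_al 2 i))

lemma fb_Gay {S : P3 n → MF n} (hS : ∀ p, TS n 3 p.ε (S p)) :
    FB uu 2 P3.ε (fun p z => ∑ i, ∑ j, S p z.2 i j * (By j (W2 (S p)) z * be i z)) :=
  FB.sum wn uu_nn fun i => FB.sum wn uu_nn fun j => FB.bm wn uu_nn (fb_S' hS i j).down
    (FB.sm wn uu_nn ((fb_W2 hS).by' j) (fb_be 2 i))

lemma Gax_eq {s : MF n} (hW : SU (W1 s)) {z : VV n} (hz : z ∈ Un n) :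
    Gax s uu (vx s) z = ∑ i, ∑ j, s z.1 i j * (Ax j (W1 s) z * al i z) := by
  have h : ∀ j, Ax j (vx s) z = Ax j (W1 s) z := by
    intro j
    rw [Ax_eq, Dr_congr (fun z _ => vx_eq s z) hz, Dr_add (su_const _) hW hz, Dr_const, zero_add]
  unfold Gax
  refine Finset.sum_congr rfl fun i _ => Finset.sum_congr rfl fun j _ => ?_
  rw [h, Ax_uu]
  ring

lemma Gay_eq {s : MF n} (hW : SU (W2 s)) {z : VV n} (hz : z ∈ Un n) :
    Gay s uu (vy s) z = ∑ i, ∑ j, s z.2 i j * (By j (W2 s) z * be i z) := by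
  have h : ∀ j, By j (vy s) z = By j (W2 s) z := by
    intro j
    rw [By_eq, Dr_congr (fun z _ => vy_eq s z) hz, Dr_add (su_const _) hW hz, Dr_const, zero_add]
  unfold Gay
  refine Finset.sum_congr rfl fun i _ => Finset.sum_congr rfl fun j _ => ?_
  rw [h, By_uu]
  ring

lemma Ax_nu {f G : VV n → ℝ} (hG : SU G) (hf : ∀ z ∈ Un n, f z = n * uu z + G z)
    {z : VV n} (hz : z ∈ Un n) (i : Fin n) : Ax i f z - n * al i z = Ax i G z := by
  rw [Ax_eq, Dr_congr hf hz, Dr_add (contDiffOn_const.mul su_uu) hG hz, Dr_cmul, ← Ax_eq, Ax_uu]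
  ring

lemma By_nu {f G : VV n → ℝ} (hG : SU G) (hf : ∀ z ∈ Un n, f z = n * uu z + G z)
    {z : VV n} (hz : z ∈ Un n) (i : Fin n) : By i f z - n * be i z = By i G z := by
  rw [By_eq, Dr_congr hf hz, Dr_add (contDiffOn_const.mul su_uu) hG hz, Dr_cmul, ← By_eq, By_uu]
  ring

end EBD

open EBD in
theorem rowEBD : RowEBD := by
  intro n
  have hg1 := fb_G1 (n := n) (S := P3.s₁) P3.t₁
  have hg2 := fb_G2 (n := n) (S := P3.s₂) P3.t₂
  have hw1 := fb_W1 (n := n) (S := P3.s₁) P3.t₁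
  have hw2 := fb_W2 (n := n) (S := P3.s₂) P3.t₂
  obtain ⟨c1, p1, k1⟩ := hg1
  obtain ⟨c2, p2, k2⟩ := hg2
  obtain ⟨c3, p3, k3⟩ := fb_L0x (S := P3.s₁) P3.t₁ ⟨c1, p1, k1⟩
  obtain ⟨c4, p4, k4⟩ := fb_L0y (S := P3.s₂) P3.t₂ ⟨c2, p2, k2⟩
  obtain ⟨c5, p5, k5⟩ := fb_L0x (S := P3.s₁) P3.t₁ ⟨c2, p2, k2⟩
  obtain ⟨c6, p6, k6⟩ := fb_L0y (S := P3.s₂) P3.t₂ ⟨c1, p1, k1⟩
  obtain ⟨c7, p7, k7⟩ := fb_Gax (n := n) (S := P3.s₁) P3.t₁
  obtain ⟨c8, p8, k8⟩ := fb_Gay (n := n) (S := P3.s₂) P3.t₂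
  have hn : (0 : ℝ) ≤ n := Nat.cast_nonneg n
  refine ⟨(n + 1) * (c1 + c2) + c3 + c4 + c5 + c6 + c7 + c8 + 1, by positivity,
    fun ε s₁ s₂ h0 h1 t1 t2 z hz => ?_⟩
  set C := (n + 1) * (c1 + c2) + c3 + c4 + c5 + c6 + c7 + c8 + 1 with hC
  set p : P3 n := ⟨ε, s₁, s₂, h0, h1, t1, t2⟩ with hp
  have hu : 0 ≤ ε * uu z := mul_nonneg h0 (uu_nn z hz)
  have mono : ∀ c, c ≤ C → c * ε * uu z ≤ C * ε * uu z := by
    intro c hc
    rw [mul_assoc, mul_assoc]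
    exact mul_le_mul_of_nonneg_right hc hu
  have q1 : 0 ≤ n * (c1 + c2) := mul_nonneg hn (by positivity)
  have m1 : c1 ≤ C := by rw [hC]; nlinarith
  have m2 : c2 ≤ C := by rw [hC]; nlinarith
  have G1b : |G1 s₁ z| ≤ c1 * ε * uu z := (k1 p).bd hz
  have G2b : |G2 s₂ z| ≤ c2 * ε * uu z := (k2 p).bd hz
  have suG1 : SU (G1 s₁) := (k1 p).su
  have suG2 : SU (G2 s₂) := (k2 p).su
  have e1 : ∀ z ∈ Un n, kax s₁ z = n * uu z + G1 s₁ z := fun z hz => kax_eq s₁ hz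
  have e2 : ∀ z ∈ Un n, kay s₂ z = n * uu z + G2 s₂ z := fun z hz => kay_eq s₂ hz
  have L1 : |L0x s₁ (G1 s₁) z| ≤ c3 * ε * uu z := (k3 p).bd hz
  have L2 : |L0y s₂ (G2 s₂) z| ≤ c4 * ε * uu z := (k4 p).bd hz
  have L3 : |L0x s₁ (G2 s₂) z| ≤ c5 * ε * uu z := (k5 p).bd hz
  have L4 : |L0y s₂ (G1 s₁) z| ≤ c6 * ε * uu z := (k6 p).bd hz
  have hsum : ∀ (g l c d : ℝ), |g| ≤ c * ε * uu z → |l| ≤ d * ε * uu z → n * c + d ≤ C →
      |n * g + l| ≤ C * ε * uu z := by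
    intro g l c d hg hl hcd
    calc |n * g + l| ≤ |n * g| + |l| := abs_add_le _ _
      _ = n * |g| + |l| := by rw [abs_mul, abs_of_nonneg hn]
      _ ≤ n * (c * ε * uu z) + d * ε * uu z :=
          add_le_add (mul_le_mul_of_nonneg_left hg hn) hl
      _ = (n * c + d) * ε * uu z := by ring
      _ ≤ C * ε * uu z := mono _ hcd
  refine ⟨?_, ?_, fun i => ?_, fun i => ?_, fun i => ?_, fun i => ?_, ?_, ?_, ?_, ?_, ?_, ?_⟩
  · rw [e1 z hz, add_sub_cancel_left]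
    exact G1b.trans (mono _ m1)
  · rw [e2 z hz, add_sub_cancel_left]
    exact G2b.trans (mono _ m2)
  · rw [Ax_nu suG1 e1 hz]
    exact (((k1 p).ax i).bd hz).trans (mono _ m1)
  · rw [By_nu suG1 e1 hz]
    exact (((k1 p).by' i).bd hz).trans (mono _ m1)
  · rw [Ax_nu suG2 e2 hz]
    exact (((k2 p).ax i).bd hz).trans (mono _ m2)
  · rw [By_nu suG2 e2 hz]
    exact (((k2 p).by' i).bd hz).trans (mono _ m2)
  · rw [L0x_nu s₁ suG1 e1 hz, L0x_uu s₁ hz]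
    rw [show n * (n * uu z + G1 s₁ z) + L0x s₁ (G1 s₁) z - n ^ 2 * uu z =
      n * G1 s₁ z + L0x s₁ (G1 s₁) z by ring]
    refine hsum _ _ _ _ G1b L1 ?_
    rw [hC]; nlinarith [mul_nonneg hn p2]
  · rw [L0y_nu s₂ suG2 e2 hz, L0y_uu s₂ hz]
    rw [show n * (n * uu z + G2 s₂ z) + L0y s₂ (G2 s₂) z - n ^ 2 * uu z =
      n * G2 s₂ z + L0y s₂ (G2 s₂) z by ring]
    refine hsum _ _ _ _ G2b L2 ?_
    rw [hC]; nlinarith [mul_nonneg hn p1]
  · rw [L0x_nu s₁ suG2 e2 hz, L0x_uu s₁ hz]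
    rw [show n * (n * uu z + G1 s₁ z) + L0x s₁ (G2 s₂) z - n ^ 2 * uu z =
      n * G1 s₁ z + L0x s₁ (G2 s₂) z by ring]
    refine hsum _ _ _ _ G1b L3 ?_
    rw [hC]; nlinarith [mul_nonneg hn p2]
  · rw [L0y_nu s₂ suG1 e1 hz, L0y_uu s₂ hz]
    rw [show n * (n * uu z + G2 s₂ z) + L0y s₂ (G1 s₁) z - n ^ 2 * uu z =
      n * G2 s₂ z + L0y s₂ (G1 s₁) z by ring]
    refine hsum _ _ _ _ G2b L4 ?_
    rw [hC]; nlinarith [mul_nonneg hn p1]
  · rw [Gax_eq (fb_W1 (S := P3.s₁) P3.t₁ |>.su p) hz]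
    refine ((k7 p).bd hz).trans (mono _ ?_)
    rw [hC]; nlinarith
  · rw [Gay_eq (fb_W2 (S := P3.s₂) P3.t₂ |>.su p) hz]
    refine ((k8 p).bd hz).trans (mono _ ?_)
    rw [hC]; nlinarith

end Vale.Agent.P088.HY
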