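import Vale.Agent.P088.R2.H558.E3

/-!
# P088, families of functions with frame derivatives bounded by a weight
-/

open MeasureTheory Set Filter
open scoped ContDiff Matrix Topology

noncomputable section

namespace Vale.Agent.P088.HY

open Vale.Agent.P088.LR

variable {n : ℕ}

/-- Frame derivatives of order at most `k` are bounded by `c φ`. -/
def Wb (φ : VV n → ℝ) : ℕ → ℝ → (VV n → ℝ) → Prop
  | 0, c, f => SU f ∧ ∀ z ∈ Un n, |f z| ≤ c * φ z
  | k + 1, c, f => (SU f ∧ ∀ z ∈ Un n, |f z| ≤ c * φ z) ∧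
      ∀ i, Wb φ k c (Ax i f) ∧ Wb φ k c (By i f)

namespace Wb

variable {φ ψ : VV n → ℝ} {k : ℕ} {a b c : ℝ} {f g : VV n → ℝ}

lemma su (h : Wb φ k c f) : SU f := by
  cases k with
  | zero => exact h.1
  | succ k => exact h.1.1

lemma bd (h : Wb φ k c f) {z : VV n} (hz : z ∈ Un n) : |f z| ≤ c * φ z := by
  cases k with
  | zero => exact h.2 z hz
  | succ k => exact h.1.2 z hz

lemma mk' (h0 : SU f) (h1 : ∀ z ∈ Un n, |f z| ≤ c * φ z)
    (h2 : ∀ i, Wb φ k c (Ax i f) ∧ Wb φ k c (By i f)) : Wb φ (k + 1) c f := ⟨⟨h0, h1⟩, h2⟩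

lemma ax (h : Wb φ (k + 1) c f) (i : Fin n) : Wb φ k c (Ax i f) := (h.2 i).1

lemma by' (h : Wb φ (k + 1) c f) (i : Fin n) : Wb φ k c (By i f) := (h.2 i).2

lemma mono (hφ : ∀ z ∈ Un n, 0 ≤ φ z) (h : Wb φ k a f) (hab : a ≤ b) : Wb φ k b f := by
  induction k generalizing f with
  | zero => exact ⟨h.1, fun z hz => (h.2 z hz).trans (mul_le_mul_of_nonneg_right hab (hφ z hz))⟩
  | succ k ih =>
    exact ⟨⟨h.1.1, fun z hz => (h.1.2 z hz).trans (mul_le_mul_of_nonneg_right hab (hφ z hz))⟩,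
      fun i => ⟨ih (h.2 i).1, ih (h.2 i).2⟩⟩

lemma wmono (hc : 0 ≤ c) (hφ : ∀ z ∈ Un n, φ z ≤ ψ z) (h : Wb φ k c f) : Wb ψ k c f := by
  induction k generalizing f with
  | zero => exact ⟨h.1, fun z hz => (h.2 z hz).trans (mul_le_mul_of_nonneg_left (hφ z hz) hc)⟩
  | succ k ih =>
    exact ⟨⟨h.1.1, fun z hz => (h.1.2 z hz).trans (mul_le_mul_of_nonneg_left (hφ z hz) hc)⟩,
      fun i => ⟨ih (h.2 i).1, ih (h.2 i).2⟩⟩

lemma down (h : Wb φ (k + 1) c f) : Wb φ k c f := by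
  induction k generalizing f with
  | zero => exact h.1
  | succ k ih => exact ⟨h.1, fun i => ⟨ih (h.2 i).1, ih (h.2 i).2⟩⟩

lemma congr (h : Wb φ k c f) (hg : SU g) (he : ∀ z ∈ Un n, f z = g z) : Wb φ k c g := by
  induction k generalizing f g with
  | zero => exact ⟨hg, fun z hz => by rw [← he z hz]; exact h.2 z hz⟩
  | succ k ih =>
    refine ⟨⟨hg, fun z hz => by rw [← he z hz]; exact h.1.2 z hz⟩, fun i => ⟨?_, ?_⟩⟩
    · exact ih (h.2 i).1 (su_Ax hg i) fun z hz => by rw [Ax_eq]; exact Dr_congr he hz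
    · exact ih (h.2 i).2 (su_By hg i) fun z hz => by rw [By_eq]; exact Dr_congr he hz

lemma add (h : Wb φ k a f) (h' : Wb φ k b g) : Wb φ k (a + b) (fun z => f z + g z) := by
  have hb : ∀ z, |f z| ≤ a * φ z → |g z| ≤ b * φ z → |f z + g z| ≤ (a + b) * φ z := by
    intro z h1 h2
    calc |f z + g z| ≤ |f z| + |g z| := abs_add_le _ _
      _ ≤ a * φ z + b * φ z := add_le_add h1 h2
      _ = (a + b) * φ z := by ring
  induction k generalizing f g with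
  | zero => exact ⟨h.1.add h'.1, fun z hz => hb z (h.2 z hz) (h'.2 z hz)⟩
  | succ k ih =>
    refine ⟨⟨h.1.1.add h'.1.1, fun z hz => hb z (h.1.2 z hz) (h'.1.2 z hz)⟩, fun i => ⟨?_, ?_⟩⟩
    · refine (ih (h.2 i).1 (h'.2 i).1 ?_).congr (su_Ax (h.1.1.add h'.1.1) i) fun z hz => ?_
      · intro z h1 h2
        calc |Ax i f z + Ax i g z| ≤ |Ax i f z| + |Ax i g z| := abs_add_le _ _
          _ ≤ a * φ z + b * φ z := add_le_add h1 h2
          _ = (a + b) * φ z := by ring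
      · rw [Ax_eq]; exact (Dr_add h.1.1 h'.1.1 hz).symm
    · refine (ih (h.2 i).2 (h'.2 i).2 ?_).congr (su_By (h.1.1.add h'.1.1) i) fun z hz => ?_
      · intro z h1 h2
        calc |By i f z + By i g z| ≤ |By i f z| + |By i g z| := abs_add_le _ _
          _ ≤ a * φ z + b * φ z := add_le_add h1 h2
          _ = (a + b) * φ z := by ring
      · rw [By_eq]; exact (Dr_add h.1.1 h'.1.1 hz).symm

lemma cmul (d : ℝ) (h : Wb φ k c f) : Wb φ k (|d| * c) (fun z => d * f z) := by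
  have hb : ∀ (f : VV n → ℝ) (z), |f z| ≤ c * φ z → |d * f z| ≤ |d| * c * φ z := by
    intro f z h1
    rw [abs_mul, mul_assoc]
    exact mul_le_mul_of_nonneg_left h1 (abs_nonneg _)
  induction k generalizing f with
  | zero => exact ⟨contDiffOn_const.mul h.1, fun z hz => hb f z (h.2 z hz)⟩
  | succ k ih =>
    refine ⟨⟨contDiffOn_const.mul h.1.1, fun z hz => hb f z (h.1.2 z hz)⟩, fun i => ⟨?_, ?_⟩⟩
    · refine (ih (h.2 i).1).congr (su_Ax (contDiffOn_const.mul h.1.1) i) fun z hz => ?_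
      rw [Ax_eq]; exact (Dr_cmul d).symm
    · refine (ih (h.2 i).2).congr (su_By (contDiffOn_const.mul h.1.1) i) fun z hz => ?_
      rw [By_eq]; exact (Dr_cmul d).symm

lemma const (hc : ∀ z ∈ Un n, |a| ≤ c * φ z) (h0 : ∀ z ∈ Un n, 0 ≤ c * φ z) :
    Wb φ k c (fun _ => a) := by
  induction k generalizing a with
  | zero => exact ⟨contDiffOn_const, hc⟩
  | succ k ih =>
    refine ⟨⟨contDiffOn_const, hc⟩, fun i => ⟨?_, ?_⟩⟩
    · refine (ih (a := 0) (by simpa using h0)).congr (su_Ax contDiffOn_const i) fun z hz => ?_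
      rw [Ax_eq]; exact (Dr_const a).symm
    · refine (ih (a := 0) (by simpa using h0)).congr (su_By contDiffOn_const i) fun z hz => ?_
      rw [By_eq]; exact (Dr_const a).symm

lemma mul (ha : 0 ≤ a) (hb : 0 ≤ b) (hφ : ∀ z ∈ Un n, 0 ≤ φ z) (hψ : ∀ z ∈ Un n, 0 ≤ ψ z)
    (h : Wb φ k a f) (h' : Wb ψ k b g) :
    Wb (fun z => φ z * ψ z) k (2 ^ k * (a * b)) (fun z => f z * g z) := by
  have key : ∀ (c : ℝ), 1 ≤ c → ∀ (f g : VV n → ℝ) (z : VV n), z ∈ Un n → |f z| ≤ a * φ z →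
      |g z| ≤ b * ψ z → |f z * g z| ≤ c * (a * b) * (φ z * ψ z) := by
    intro c hc f g z hz h1 h2
    rw [abs_mul]
    have h3 : |f z| * |g z| ≤ (a * φ z) * (b * ψ z) :=
      mul_le_mul h1 h2 (abs_nonneg _) (mul_nonneg ha (hφ z hz))
    have h4 : 0 ≤ (a * b) * (φ z * ψ z) :=
      mul_nonneg (mul_nonneg ha hb) (mul_nonneg (hφ z hz) (hψ z hz))
    calc |f z| * |g z| ≤ 1 * ((a * b) * (φ z * ψ z)) := by linarith
      _ ≤ c * ((a * b) * (φ z * ψ z)) := mul_le_mul_of_nonneg_right hc h4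
      _ = _ := by ring
  induction k generalizing f g with
  | zero =>
    exact ⟨h.1.mul h'.1, fun z hz => key _ (by norm_num) f g z hz (h.2 z hz) (h'.2 z hz)⟩
  | succ k ih =>
    have h2 : (1 : ℝ) ≤ 2 ^ (k + 1) := one_le_pow₀ (by norm_num)
    refine ⟨⟨h.1.1.mul h'.1.1, fun z hz => key _ h2 f g z hz (h.1.2 z hz) (h'.1.2 z hz)⟩,
      fun i => ⟨?_, ?_⟩⟩
    · have e1 := (ih (h.2 i).1 h'.down).add (ih h.down (h'.2 i).1)
      rw [show (2 : ℝ) ^ (k + 1) * (a * b) = 2 ^ k * (a * b) + 2 ^ k * (a * b) by ring]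
      refine e1.congr (su_Ax (h.1.1.mul h'.1.1) i) fun z hz => ?_
      rw [Ax_eq]; exact (Dr_mul h.1.1 h'.1.1 hz).symm
    · have e1 := (ih (h.2 i).2 h'.down).add (ih h.down (h'.2 i).2)
      rw [show (2 : ℝ) ^ (k + 1) * (a * b) = 2 ^ k * (a * b) + 2 ^ k * (a * b) by ring]
      refine e1.congr (su_By (h.1.1.mul h'.1.1) i) fun z hz => ?_
      rw [By_eq]; exact (Dr_mul h.1.1 h'.1.1 hz).symm

end Wb

/-- Families: the bound is uniform up to the factor `w i`. -/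
def FB {ι : Type} (φ : VV n → ℝ) (k : ℕ) (w : ι → ℝ) (f : ι → VV n → ℝ) : Prop :=
  ∃ C, 0 ≤ C ∧ ∀ i, Wb φ k (C * w i) (f i)

/-- The weight `1`. -/
def w1 : VV n → ℝ := fun _ => 1

lemma w1_nn : ∀ z ∈ Un n, 0 ≤ (w1 z : ℝ) := fun _ _ => zero_le_one

lemma uu_nn : ∀ z ∈ Un n, 0 ≤ (uu z : ℝ) := fun _ hz => zero_le_one.trans (one_le_uu hz)

namespace FB

variable {ι : Type} {φ ψ : VV n → ℝ} {k : ℕ} {w w' : ι → ℝ} {f g : ι → VV n → ℝ}

lemma add (_hw : ∀ i, 0 ≤ w i) (_hφ : ∀ z ∈ Un n, 0 ≤ φ z) (h : FB φ k w f) (h' : FB φ k w g) :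
    FB φ k w (fun i z => f i z + g i z) := by
  obtain ⟨C, hC, h⟩ := h
  obtain ⟨D, hD, h'⟩ := h'
  refine ⟨C + D, by positivity, fun i => ?_⟩
  rw [add_mul]
  exact (h i).add (h' i)

lemma cmul (d : ℝ) (h : FB φ k w f) : FB φ k w (fun i z => d * f i z) := by
  obtain ⟨C, hC, h⟩ := h
  refine ⟨|d| * C, by positivity, fun i => ?_⟩
  rw [mul_assoc]
  exact (h i).cmul d

lemma neg (h : FB φ k w f) : FB φ k w (fun i z => -f i z) := by
  have := h.cmul (-1)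
  simpa using this

lemma sub (hw : ∀ i, 0 ≤ w i) (hφ : ∀ z ∈ Un n, 0 ≤ φ z) (h : FB φ k w f) (h' : FB φ k w g) :
    FB φ k w (fun i z => f i z - g i z) := by
  have := h.add hw hφ h'.neg
  simpa [sub_eq_add_neg] using this

lemma zero (_hw : ∀ i, 0 ≤ w i) (_hφ : ∀ z ∈ Un n, 0 ≤ φ z) :
    FB φ k w (fun _ _ => 0) :=
  ⟨0, le_rfl, fun i => Wb.const (fun z hz => by simp) (fun z hz => by simp)⟩

lemma sum (hw : ∀ i, 0 ≤ w i) (hφ : ∀ z ∈ Un n, 0 ≤ φ z) {m : ℕ}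
    {F : Fin m → ι → VV n → ℝ} (h : ∀ j, FB φ k w (F j)) :
    FB φ k w (fun i z => ∑ j, F j i z) := by
  have : ∀ t : Finset (Fin m), FB φ k w (fun i z => ∑ j ∈ t, F j i z) := by
    intro t
    induction t using Finset.induction_on with
    | empty => simpa using zero hw hφ
    | insert j t hj ih =>
      simp only [Finset.sum_insert hj]
      exact (h j).add hw hφ ih
  exact this Finset.univ

lemma mul (hw : ∀ i, 0 ≤ w i) (hw' : ∀ i, 0 ≤ w' i) (hφ : ∀ z ∈ Un n, 0 ≤ φ z)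
    (hψ : ∀ z ∈ Un n, 0 ≤ ψ z) (h : FB φ k w f) (h' : FB ψ k w' g) :
    FB (fun z => φ z * ψ z) k (fun i => w i * w' i) (fun i z => f i z * g i z) := by
  obtain ⟨C, hC, h⟩ := h
  obtain ⟨D, hD, h'⟩ := h'
  refine ⟨2 ^ k * (C * D), by positivity, fun i => ?_⟩
  have := (h i).mul (mul_nonneg hC (hw i)) (mul_nonneg hD (hw' i)) hφ hψ (h' i)
  rwa [show 2 ^ k * (C * D) * (w i * w' i) = 2 ^ k * (C * w i * (D * w' i)) by ring]

lemma wle (hφ : ∀ z ∈ Un n, 0 ≤ φ z) (hw : ∀ i, w i ≤ w' i) (h : FB φ k w f) : FB φ k w' f := by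
  obtain ⟨C, hC, h⟩ := h
  exact ⟨C, hC, fun i => (h i).mono hφ (mul_le_mul_of_nonneg_left (hw i) hC)⟩

lemma φle (hw : ∀ i, 0 ≤ w i) (hφ : ∀ z ∈ Un n, φ z ≤ ψ z) (h : FB φ k w f) : FB ψ k w f := by
  obtain ⟨C, hC, h⟩ := h
  exact ⟨C, hC, fun i => (h i).wmono (mul_nonneg hC (hw i)) hφ⟩

lemma down (h : FB φ (k + 1) w f) : FB φ k w f := by
  obtain ⟨C, hC, h⟩ := h
  exact ⟨C, hC, fun i => (h i).down⟩

lemma ax (h : FB φ (k + 1) w f) (j : Fin n) : FB φ k w (fun i => Ax j (f i)) := by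
  obtain ⟨C, hC, h⟩ := h
  exact ⟨C, hC, fun i => (h i).ax j⟩

lemma by' (h : FB φ (k + 1) w f) (j : Fin n) : FB φ k w (fun i => By j (f i)) := by
  obtain ⟨C, hC, h⟩ := h
  exact ⟨C, hC, fun i => (h i).by' j⟩

lemma congr (h : FB φ k w f) (hg : ∀ i, SU (g i)) (he : ∀ i, ∀ z ∈ Un n, f i z = g i z) :
    FB φ k w g := by
  obtain ⟨C, hC, h⟩ := h
  exact ⟨C, hC, fun i => (h i).congr (hg i) (he i)⟩

lemma su (h : FB φ k w f) (i : ι) : SU (f i) := by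
  obtain ⟨C, hC, h⟩ := h
  exact (h i).su

lemma succ (hφ : ∀ z ∈ Un n, 0 ≤ φ z) (hw : ∀ i, 0 ≤ w i) (h0 : FB φ 0 w f)
    (h1 : ∀ j, FB φ k w (fun i => Ax j (f i))) (h2 : ∀ j, FB φ k w (fun i => By j (f i))) :
    FB φ (k + 1) w f := by
  obtain ⟨C, hC, h0⟩ := h0
  choose D hD h1 using h1
  choose E hE h2 using h2
  have hD' : ∀ j, D j ≤ ∑ j, D j := fun j =>
    Finset.single_le_sum (fun i _ => hD i) (Finset.mem_univ j)
  have hE' : ∀ j, E j ≤ ∑ j, E j := fun j =>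
    Finset.single_le_sum (fun i _ => hE i) (Finset.mem_univ j)
  have hDs : 0 ≤ ∑ j, D j := Finset.sum_nonneg fun i _ => hD i
  have hEs : 0 ≤ ∑ j, E j := Finset.sum_nonneg fun i _ => hE i
  refine ⟨C + ∑ j, D j + ∑ j, E j, by positivity, fun i => ?_⟩
  have hle : ∀ x, x ≤ C + ∑ j, D j + ∑ j, E j → x * w i ≤ (C + ∑ j, D j + ∑ j, E j) * w i :=
    fun x hx => mul_le_mul_of_nonneg_right hx (hw i)
  refine ⟨⟨(h0 i).1, fun z hz => ?_⟩, fun j => ⟨?_, ?_⟩⟩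
  · exact ((h0 i).2 z hz).trans (mul_le_mul_of_nonneg_right (hle C (by linarith)) (hφ z hz))
  · exact (h1 j i).mono hφ (hle _ (by linarith [hD' j]))
  · exact (h2 j i).mono hφ (hle _ (by linarith [hE' j]))

end FB

end Vale.Agent.P088.HY
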