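import Vale.Agent.P088.R2.H230.Wt
import Vale.Agent.P088.R2.H724.Geo

/-!
# P088, frame derivatives of the coordinates, of `u`, and of the coefficients
-/

open MeasureTheory Set Filter
open scoped ContDiff Matrix Topology

noncomputable section

namespace Vale.Agent.P088.HY

open Vale.Agent.P088.LR

variable {n : ℕ}

namespace FB

variable {ι : Type} {φ ψ : VV n → ℝ} {k : ℕ} {w w' w'' : ι → ℝ} {f g : ι → VV n → ℝ}

lemma base (h : FB φ k w f) : FB φ 0 w f := by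
  induction k with
  | zero => exact h
  | succ k ih => exact ih h.down

lemma const1 (hw : ∀ i, 0 ≤ w i) (a : ℝ) (ha : ∀ i, |a| ≤ |a| * w i) :
    FB (n := n) w1 k w (fun _ _ => a) := by
  refine ⟨|a|, abs_nonneg _, fun i => Wb.const (fun z _ => ?_) fun z _ => ?_⟩
  · simpa [w1] using ha i
  · have := hw i
    unfold w1; positivity

/-- Products with bounded factors. -/
lemma mulL (hw : ∀ i, 0 ≤ w i) (hw' : ∀ i, 0 ≤ w' i) (hww : ∀ i, w i * w' i ≤ w'' i)
    (hψ : ∀ z ∈ Un n, 0 ≤ ψ z) (h : FB w1 k w f) (h' : FB ψ k w' g) :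
    FB ψ k w'' (fun i z => f i z * g i z) := by
  have h1 := h.mul hw hw' w1_nn hψ h'
  have h2 : (fun z : VV n => w1 z * ψ z) = ψ := by
    funext z; simp [w1]
  rw [h2] at h1
  exact h1.wle hψ hww

lemma ofEq {f g : ι → VV n → ℝ} (h : FB φ k w f) (he : ∀ i z, g i z = f i z) : FB φ k w g := by
  have : g = f := by funext i z; exact he i z
  rwa [this]

end FB

section basic

variable {ι : Type}

/-- The weight `1` on indices. -/
def wo : ι → ℝ := fun _ => 1

lemma wo_nn (i : ι) : 0 ≤ wo i := zero_le_one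

lemma const_b (k : ℕ) (a : ℝ) : FB (n := n) w1 k (wo (ι := ι)) (fun _ _ => a) :=
  FB.const1 wo_nn a fun i => by simp [wo]

lemma const_u (k : ℕ) (a : ℝ) : FB (n := n) uu k (wo (ι := ι)) (fun _ _ => a) :=
  (const_b k a).φle wo_nn fun _ hz => one_le_uu hz

/-- Products of bounded functions with functions in a weighted class. -/
lemma FB.bm {ψ : VV n → ℝ} {k : ℕ} {w : ι → ℝ} {f g : ι → VV n → ℝ} (hw : ∀ i, 0 ≤ w i)
    (hψ : ∀ z ∈ Un n, 0 ≤ ψ z) (h : FB w1 k wo f) (h' : FB ψ k w g) :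
    FB ψ k w (fun i z => f i z * g i z) :=
  FB.mulL wo_nn hw (fun i => by simp [wo]) hψ h h'

/-- Products of small functions with functions of weight `1`. -/
lemma FB.sm {ψ : VV n → ℝ} {k : ℕ} {w : ι → ℝ} {f g : ι → VV n → ℝ} (hw : ∀ i, 0 ≤ w i)
    (hψ : ∀ z ∈ Un n, 0 ≤ ψ z) (h : FB w1 k w f) (h' : FB ψ k wo g) :
    FB ψ k w (fun i z => f i z * g i z) :=
  FB.mulL hw wo_nn (fun i => by simp [wo]) hψ h h'

lemma base_of (φ : VV n → ℝ) (f : VV n → ℝ) (hf : SU f) (c : ℝ) (hc : 0 ≤ c)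
    (h : ∀ z ∈ Un n, |f z| ≤ c * φ z) : FB φ 0 (wo (ι := ι)) (fun _ => f) :=
  ⟨c, hc, fun i => ⟨hf, fun z hz => by simpa [wo] using h z hz⟩⟩

lemma abs_r1_le {z : VV n} (hz : z ∈ Un n) : |r1 z| ≤ 1 := by
  have h1 := r1_pos hz
  have h2 : r1 z ≤ 1 / 2 := rr_le _
  rw [abs_of_pos h1]; linarith

lemma abs_r2_le {z : VV n} (hz : z ∈ Un n) : |r2 z| ≤ 1 := by
  have h1 := r2_pos hz
  have h2 : r2 z ≤ 1 / 2 := rr_le _
  rw [abs_of_pos h1]; linarith

lemma coord_all (k : ℕ) :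
    (∀ j, FB (n := n) w1 k (wo (ι := ι)) (fun _ z => z.1 j)) ∧
    (∀ j, FB (n := n) w1 k (wo (ι := ι)) (fun _ z => z.2 j)) ∧
    FB (n := n) w1 k (wo (ι := ι)) (fun _ => r1) ∧
    FB (n := n) w1 k (wo (ι := ι)) (fun _ => r2) := by
  have bx : ∀ j, FB (n := n) w1 0 (wo (ι := ι)) (fun _ z => z.1 j) := fun j =>
    base_of _ _ (su_x j) 1 zero_le_one fun z hz => by simpa [w1] using abs_x_le hz j
  have by_ : ∀ j, FB (n := n) w1 0 (wo (ι := ι)) (fun _ z => z.2 j) := fun j =>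
    base_of _ _ (su_y j) 1 zero_le_one fun z hz => by simpa [w1] using abs_y_le hz j
  have br1 : FB (n := n) w1 0 (wo (ι := ι)) (fun _ => r1) :=
    base_of _ _ su_r1 1 zero_le_one fun z hz => by simpa [w1] using abs_r1_le hz
  have br2 : FB (n := n) w1 0 (wo (ι := ι)) (fun _ => r2) :=
    base_of _ _ su_r2 1 zero_le_one fun z hz => by simpa [w1] using abs_r2_le hz
  have hz0 : ∀ k, FB (n := n) w1 k (wo (ι := ι)) (fun _ _ => 0) := fun k => const_b k 0
  induction k with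
  | zero => exact ⟨bx, by_, br1, br2⟩
  | succ k ih =>
    obtain ⟨hx, hy, h1, h2⟩ := ih
    refine ⟨fun j => ?_, fun j => ?_, ?_, ?_⟩
    · refine FB.succ w1_nn wo_nn (bx j) (fun i => ?_) fun i => ?_
      · exact (h1.cmul (kd i j)).ofEq fun _ z => Ax_x' i j z
      · exact (hz0 k).ofEq fun _ z => By_x i j z
    · refine FB.succ w1_nn wo_nn (by_ j) (fun i => ?_) fun i => ?_
      · exact (hz0 k).ofEq fun _ z => Ax_y i j z
      · exact (h2.cmul (kd i j)).ofEq fun _ z => By_y' i j z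
    · refine FB.succ w1_nn wo_nn br1 (fun i => ?_) fun i => ?_
      · exact (FB.bm wo_nn w1_nn h1 (hx i)).neg.ofEq fun _ z => Ax_r1 i z
      · exact (hz0 k).ofEq fun _ z => By_r1 i z
    · refine FB.succ w1_nn wo_nn br2 (fun i => ?_) fun i => ?_
      · exact (hz0 k).ofEq fun _ z => Ax_r2 i z
      · exact (FB.bm wo_nn w1_nn h2 (hy i)).neg.ofEq fun _ z => By_r2 i z

lemma fb_x (k : ℕ) (j : Fin n) : FB (n := n) w1 k (wo (ι := ι)) (fun _ z => z.1 j) :=
  (coord_all k).1 j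

lemma fb_y (k : ℕ) (j : Fin n) : FB (n := n) w1 k (wo (ι := ι)) (fun _ z => z.2 j) :=
  (coord_all k).2.1 j

lemma fb_r1 (k : ℕ) : FB (n := n) w1 k (wo (ι := ι)) (fun _ => r1) := (coord_all k).2.2.1

lemma fb_r2 (k : ℕ) : FB (n := n) w1 k (wo (ι := ι)) (fun _ => r2) := (coord_all k).2.2.2

lemma u_all (k : ℕ) :
    FB (n := n) uu k (wo (ι := ι)) (fun _ => uu) ∧
    (∀ j, FB (n := n) uu k (wo (ι := ι)) (fun _ => al j)) ∧
    (∀ j, FB (n := n) uu k (wo (ι := ι)) (fun _ => be j)) := by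
  have bu : FB (n := n) uu 0 (wo (ι := ι)) (fun _ => uu) :=
    base_of _ _ su_uu 1 zero_le_one fun z hz => by
      rw [one_mul, abs_of_nonneg (uu_nn z hz)]
  have ba : ∀ j, FB (n := n) uu 0 (wo (ι := ι)) (fun _ => al j) := fun j =>
    base_of _ _ (su_al j) 1 zero_le_one fun z hz => by rw [one_mul]; exact abs_al_le hz j
  have bb : ∀ j, FB (n := n) uu 0 (wo (ι := ι)) (fun _ => be j) := fun j =>
    base_of _ _ (su_be j) 1 zero_le_one fun z hz => by rw [one_mul]; exact abs_be_le hz j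
  induction k with
  | zero => exact ⟨bu, ba, bb⟩
  | succ k ih =>
    obtain ⟨hu, ha, hb⟩ := ih
    have hxa : FB (n := n) uu k (wo (ι := ι)) (fun _ => xa) :=
      FB.sum wo_nn uu_nn fun i => FB.bm wo_nn uu_nn (fb_x k i) (ha i)
    have hyb : FB (n := n) uu k (wo (ι := ι)) (fun _ => yb) :=
      FB.sum wo_nn uu_nn fun i => FB.bm wo_nn uu_nn (fb_y k i) (hb i)
    have hmm : ∀ i j, FB (n := n) uu k (wo (ι := ι)) (fun _ => mm i j) := by
      intro i j
      have h1 : FB (n := n) uu k (wo (ι := ι)) (fun _ z => -kd i j + z.1 i * be j z +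
          z.2 j * al i z - z.1 i * (z.2 j * (uu z - 1))) :=
        FB.sub wo_nn uu_nn (FB.add wo_nn uu_nn (FB.add wo_nn uu_nn (const_u k (-kd i j))
          (FB.bm wo_nn uu_nn (fb_x k i) (hb j))) (FB.bm wo_nn uu_nn (fb_y k j) (ha i)))
          (FB.bm wo_nn uu_nn (fb_x k i) (FB.bm wo_nn uu_nn (fb_y k j)
            (FB.sub wo_nn uu_nn hu (const_u k 1))))
      exact h1.congr (fun _ => su_mm i j) fun _ z hz => by rw [mm_eq hz]; ring
    refine ⟨FB.succ uu_nn wo_nn bu ha hb, fun j => ?_, fun j => ?_⟩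
    · refine FB.succ uu_nn wo_nn (ba j) (fun i => ?_) fun i => ?_
      · have h1 : FB (n := n) uu k (wo (ι := ι)) (fun _ z => kd i j * (uu z - xa z) +
            z.1 j * al i z) :=
          FB.add wo_nn uu_nn ((FB.sub wo_nn uu_nn hu hxa).cmul (kd i j))
            (FB.bm wo_nn uu_nn (fb_x k j) (ha i))
        exact h1.congr (fun _ => su_Ax (su_al j) i) fun _ z hz => (Ax_al hz i j).symm
      · exact (hmm j i).congr (fun _ => su_By (su_al j) i) fun _ z hz => (By_al hz j i).symm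
    · refine FB.succ uu_nn wo_nn (bb j) (fun i => ?_) fun i => ?_
      · exact hmm i j
      · have h1 : FB (n := n) uu k (wo (ι := ι)) (fun _ z => kd i j * (uu z - yb z) +
            z.2 j * be i z) :=
          FB.add wo_nn uu_nn ((FB.sub wo_nn uu_nn hu hyb).cmul (kd i j))
            (FB.bm wo_nn uu_nn (fb_y k j) (hb i))
        exact h1.congr (fun _ => su_By (su_be j) i) fun _ z hz => (By_be hz i j).symm

lemma fb_u (k : ℕ) : FB (n := n) uu k (wo (ι := ι)) (fun _ => uu) := (u_all k).1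

lemma fb_al (k : ℕ) (j : Fin n) : FB (n := n) uu k (wo (ι := ι)) (fun _ => al j) :=
  (u_all k).2.1 j

lemma fb_be (k : ℕ) (j : Fin n) : FB (n := n) uu k (wo (ι := ι)) (fun _ => be j) :=
  (u_all k).2.2 j

lemma fb_xa (k : ℕ) : FB (n := n) uu k (wo (ι := ι)) (fun _ => xa) :=
  FB.sum wo_nn uu_nn fun i => FB.bm wo_nn uu_nn (fb_x k i) (fb_al k i)

lemma fb_yb (k : ℕ) : FB (n := n) uu k (wo (ι := ι)) (fun _ => yb) :=
  FB.sum wo_nn uu_nn fun i => FB.bm wo_nn uu_nn (fb_y k i) (fb_be k i)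

lemma fb_mm (k : ℕ) (i j : Fin n) : FB (n := n) uu k (wo (ι := ι)) (fun _ => mm i j) :=
  (fb_be (k + 1) j).ax i

end basic

end Vale.Agent.P088.HY
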